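/-
S0112 (row 84), package H of `notes/s0112/PROOF.md` (helper72's proof): resolvent truncation.

For a bounded operator `v` on a complex Hilbert space and `R > 0`, put `y = v⋆ v`,
`A = 1 + y / R` and `w = A⁻¹`.  Then `v' = v w` satisfies
* `‖v'‖ ≤ √R / 2`,
* `‖v ξ - v' ξ‖ ≤ ‖v⋆ v ξ‖ / (2 √R)` for every vector `ξ`,
* `v' ∈ M` for every von Neumann algebra `M` containing `v`.

No functional calculus is used: `A` is coercive, hence invertible; the norm bound is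
`2 ⟨u, y u⟩ ≤ R ‖u‖² + ‖y u‖² / R`; membership is `M = M''`.
Mathlib only.
-/
import Mathlib

set_option autoImplicit false

namespace Crest.Agent.Helper43.S0112

open scoped InnerProductSpace

variable {H : Type*} [NormedAddCommGroup H] [InnerProductSpace ℂ H] [CompleteSpace H]

/-- The operator `1 + R⁻¹ • (v⋆ v)`. -/
noncomputable def resA (v : H →L[ℂ] H) (R : ℝ) : H →L[ℂ] H :=
  1 + ((R⁻¹ : ℝ) : ℂ) • (star v * v)

theorem resA_apply (v : H →L[ℂ] H) (R : ℝ) (x : H) :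
    resA v R x = x + ((R⁻¹ : ℝ) : ℂ) • (star v * v) x := by
  simp [resA]

theorem star_mul_self_apply (v : H →L[ℂ] H) (x : H) :
    (star v * v) x = ContinuousLinearMap.adjoint v (v x) := by
  simp [ContinuousLinearMap.star_eq_adjoint]

/-- `⟨x, v⋆ v x⟩ = ‖v x‖²`. -/
theorem inner_star_mul_self (v : H →L[ℂ] H) (x : H) :
    ⟪x, (star v * v) x⟫_ℂ = ((‖v x‖ ^ 2 : ℝ) : ℂ) := by
  rw [star_mul_self_apply, ContinuousLinearMap.adjoint_inner_right, inner_self_eq_norm_sq_to_K]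
  norm_cast

/-- `⟨A x, x⟩ = ‖x‖² + R⁻¹ ‖v x‖²`. -/
theorem inner_resA (v : H →L[ℂ] H) (R : ℝ) (x : H) :
    ⟪resA v R x, x⟫_ℂ = ((‖x‖ ^ 2 + R⁻¹ * ‖v x‖ ^ 2 : ℝ) : ℂ) := by
  rw [resA_apply, inner_add_left, inner_smul_left, inner_self_eq_norm_sq_to_K,
    star_mul_self_apply, ContinuousLinearMap.adjoint_inner_left, inner_self_eq_norm_sq_to_K]
  simp

/-- `A = 1 + R⁻¹ v⋆ v` is invertible for `R > 0`. -/
theorem isUnit_resA (v : H →L[ℂ] H) {R : ℝ} (hR : 0 < R) : IsUnit (resA v R) := by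
  refine ContinuousLinearMap.isUnit_of_forall_le_norm_inner_map (resA v R) (c := 1) one_pos ?_
  intro x
  rw [inner_resA, Complex.norm_real, Real.norm_eq_abs]
  have h1 : 0 ≤ R⁻¹ * ‖v x‖ ^ 2 := by positivity
  have h2 : 0 ≤ ‖x‖ ^ 2 := by positivity
  rw [abs_of_nonneg (by linarith)]
  simp only [NNReal.coe_one, mul_one]
  linarith

/-- The key pointwise bound: `‖v u‖ ≤ (√R / 2) ‖A u‖`. -/
theorem norm_apply_le_resA (v : H →L[ℂ] H) {R : ℝ} (hR : 0 < R) (u : H) :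
    ‖v u‖ ≤ Real.sqrt R / 2 * ‖resA v R u‖ := by
  set yu : H := (star v * v) u with hyu
  -- `‖v u‖² = re ⟨u, y u⟩ ≤ ‖u‖ ‖y u‖`
  have hvu : ‖v u‖ ^ 2 = RCLike.re ⟪u, yu⟫_ℂ := by
    rw [hyu, inner_star_mul_self]; exact (Complex.ofReal_re _).symm
  have hCS : ‖v u‖ ^ 2 ≤ ‖u‖ * ‖yu‖ := by
    rw [hvu]; exact re_inner_le_norm u yu
  -- `‖A u‖² = ‖u‖² + 2 R⁻¹ ‖v u‖² + R⁻² ‖y u‖²`
  have hA : ‖resA v R u‖ ^ 2 = ‖u‖ ^ 2 + 2 * R⁻¹ * ‖v u‖ ^ 2 + R⁻¹ ^ 2 * ‖yu‖ ^ 2 := by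
    rw [resA_apply, ← hyu, @norm_add_sq ℂ, inner_smul_right, norm_smul, hvu]
    simp only [Complex.norm_real, Real.norm_eq_abs, RCLike.re_to_complex, Complex.re_ofReal_mul,
      mul_pow, sq_abs]
    ring
  have hRi : 0 < R⁻¹ := inv_pos.mpr hR
  -- AM-GM: `‖u‖ ‖y u‖ ≤ (R/2) ‖u‖² + ‖y u‖² / (2R)`
  have hAM : ‖u‖ * ‖yu‖ ≤ R / 2 * ‖u‖ ^ 2 + R⁻¹ / 2 * ‖yu‖ ^ 2 := by
    have hsq : 0 ≤ (R * ‖u‖ - ‖yu‖) ^ 2 := sq_nonneg _
    have hexp : R / 2 * ‖u‖ ^ 2 + R⁻¹ / 2 * ‖yu‖ ^ 2 - ‖u‖ * ‖yu‖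
        = R⁻¹ / 2 * (R * ‖u‖ - ‖yu‖) ^ 2 := by
      field_simp
      ring
    have : 0 ≤ R⁻¹ / 2 * (R * ‖u‖ - ‖yu‖) ^ 2 := by positivity
    linarith
  have hsqle : ‖v u‖ ^ 2 ≤ (Real.sqrt R / 2 * ‖resA v R u‖) ^ 2 := by
    rw [mul_pow, div_pow, Real.sq_sqrt hR.le, hA]
    have e : R / 2 ^ 2 * (‖u‖ ^ 2 + 2 * R⁻¹ * ‖v u‖ ^ 2 + R⁻¹ ^ 2 * ‖yu‖ ^ 2)
        = R / 4 * ‖u‖ ^ 2 + ‖v u‖ ^ 2 / 2 + R⁻¹ / 4 * ‖yu‖ ^ 2 := by
      field_simp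
      ring
    rw [e]
    linarith
  have hnn : 0 ≤ Real.sqrt R / 2 * ‖resA v R u‖ := by positivity
  exact le_of_sq_le_sq hsqle hnn

/-- Package H, pointwise form. -/
theorem truncation_bounds (v w : H →L[ℂ] H) {R : ℝ} (hR : 0 < R)
    (hwA : w * resA v R = 1) (hAw : resA v R * w = 1) :
    (∀ x, ‖(v * w) x‖ ≤ Real.sqrt R / 2 * ‖x‖) ∧ ‖v * w‖ ≤ Real.sqrt R / 2 ∧
      (∀ ξ, ‖v ξ - (v * w) ξ‖ ≤ ‖(star v * v) ξ‖ / (2 * Real.sqrt R)) := by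
  have hb : ∀ x, ‖(v * w) x‖ ≤ Real.sqrt R / 2 * ‖x‖ := by
    intro x
    have h1 := norm_apply_le_resA v hR (w x)
    have h2 : resA v R (w x) = x := by
      have := congrArg (fun T : H →L[ℂ] H => T x) hAw
      simpa using this
    rw [h2] at h1
    simpa using h1
  refine ⟨hb, ContinuousLinearMap.opNorm_le_bound _ (by positivity) hb, ?_⟩
  intro ξ
  have hsR : 0 < Real.sqrt R := Real.sqrt_pos.mpr hR
  -- `ξ - w ξ = w (R⁻¹ • y ξ)`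
  have h3 : w (resA v R ξ) = ξ := by
    have := congrArg (fun T : H →L[ℂ] H => T ξ) hwA
    simpa using this
  have h4 : v ξ - (v * w) ξ = (v * w) (((R⁻¹ : ℝ) : ℂ) • (star v * v) ξ) := by
    have h5 : w (((R⁻¹ : ℝ) : ℂ) • (star v * v) ξ) = ξ - w ξ := by
      have h6 : ((R⁻¹ : ℝ) : ℂ) • (star v * v) ξ = resA v R ξ - ξ := by
        rw [resA_apply]; abel
      rw [h6, map_sub, h3]
    show v ξ - v (w ξ) = v (w (((R⁻¹ : ℝ) : ℂ) • (star v * v) ξ))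
    rw [h5, map_sub]
  rw [h4]
  refine (hb _).trans (le_of_eq ?_)
  rw [norm_smul, Complex.norm_real, Real.norm_eq_abs, abs_of_pos (inv_pos.mpr hR)]
  have hsne : Real.sqrt R ≠ 0 := hsR.ne'
  have hinv : R⁻¹ = (Real.sqrt R)⁻¹ * (Real.sqrt R)⁻¹ := by
    rw [← mul_inv, Real.mul_self_sqrt hR.le]
  rw [hinv]
  field_simp

/-- Membership: an inverse of `A` lies in every von Neumann algebra containing `v`. -/
theorem inverse_mem (M : VonNeumannAlgebra H) (v w : H →L[ℂ] H) (R : ℝ)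
    (hwA : w * resA v R = 1) (hAw : resA v R * w = 1) (hv : v ∈ M) : w ∈ M := by
  have hA : resA v R ∈ M := by
    have hy : star v * v ∈ M := mul_mem (star_mem hv) hv
    have hsm : ((R⁻¹ : ℝ) : ℂ) • (star v * v) ∈ M := by
      have : ((R⁻¹ : ℝ) : ℂ) • (star v * v) ∈ M.toStarSubalgebra :=
        M.toStarSubalgebra.smul_mem (VonNeumannAlgebra.mem_carrier.mpr hy) _
      exact VonNeumannAlgebra.mem_carrier.mp this
    exact add_mem (one_mem M) hsm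
  have hcc : w ∈ Set.centralizer (Set.centralizer (M : Set (H →L[ℂ] H))) := by
    rw [Set.mem_centralizer_iff]
    intro b hb
    rw [Set.mem_centralizer_iff] at hb
    have hbA : resA v R * b = b * resA v R := hb _ hA
    calc b * w = (w * resA v R) * (b * w) := by rw [hwA, one_mul]
      _ = w * (resA v R * b) * w := by simp only [mul_assoc]
      _ = w * (b * resA v R) * w := by rw [hbA]
      _ = w * b * (resA v R * w) := by simp only [mul_assoc]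
      _ = w * b := by rw [hAw, mul_one]
  rwa [VonNeumannAlgebra.centralizer_centralizer] at hcc

/-- **Package H** (resolvent truncation).  For `v` bounded and `R > 0` there is `w` (the
inverse of `1 + R⁻¹ v⋆ v`) such that `v' = v w` has norm at most `√R / 2`, differs from `v` on
any vector `ξ` by at most `‖v⋆ v ξ‖ / (2 √R)`, and lies in every von Neumann algebra
containing `v`. -/
theorem exists_truncation (v : H →L[ℂ] H) (R : ℝ) (hR : 0 < R) : ∃ w : H →L[ℂ] H,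
    w * (1 + ((R⁻¹ : ℝ) : ℂ) • (star v * v)) = 1 ∧
    (1 + ((R⁻¹ : ℝ) : ℂ) • (star v * v)) * w = 1 ∧
    (∀ x, ‖(v * w) x‖ ≤ Real.sqrt R / 2 * ‖x‖) ∧ ‖v * w‖ ≤ Real.sqrt R / 2 ∧
    (∀ ξ, ‖v ξ - (v * w) ξ‖ ≤ ‖(star v * v) ξ‖ / (2 * Real.sqrt R)) ∧
    (∀ M : VonNeumannAlgebra H, v ∈ M → w ∈ M ∧ v * w ∈ M) := by
  obtain ⟨u, hu⟩ := isUnit_resA v hR
  have hwA : (↑u⁻¹ : H →L[ℂ] H) * resA v R = 1 := by rw [← hu]; exact u.inv_mul
  have hAw : resA v R * (↑u⁻¹ : H →L[ℂ] H) = 1 := by rw [← hu]; exact u.mul_inv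
  obtain ⟨h1, h2, h3⟩ := truncation_bounds v (↑u⁻¹ : H →L[ℂ] H) hR hwA hAw
  refine ⟨(↑u⁻¹ : H →L[ℂ] H), hwA, hAw, h1, h2, h3, ?_⟩
  intro M hv
  have hw := inverse_mem M v _ R hwA hAw hv
  exact ⟨hw, mul_mem hv hw⟩

/-- Squared form of the approximation bound, as used in the assembly (step I.5/I.6):
`‖v ξ - v' ξ‖² ≤ ‖v⋆ v ξ‖² / (4 R)`. -/
theorem exists_truncation_sq (v : H →L[ℂ] H) (R : ℝ) (hR : 0 < R) : ∃ v' : H →L[ℂ] H,
    ‖v'‖ ≤ Real.sqrt R / 2 ∧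
    (∀ ξ, ‖v ξ - v' ξ‖ ^ 2 ≤ ‖(star v * v) ξ‖ ^ 2 / (4 * R)) ∧
    (∀ M : VonNeumannAlgebra H, v ∈ M → v' ∈ M) := by
  obtain ⟨w, -, -, -, h2, h3, h4⟩ := exists_truncation v R hR
  refine ⟨v * w, h2, ?_, fun M hv => (h4 M hv).2⟩
  intro ξ
  have hsR : 0 < Real.sqrt R := Real.sqrt_pos.mpr hR
  have h5 := h3 ξ
  have h6 : ‖v ξ - (v * w) ξ‖ ^ 2 ≤ (‖(star v * v) ξ‖ / (2 * Real.sqrt R)) ^ 2 :=
    pow_le_pow_left₀ (norm_nonneg _) h5 2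
  refine h6.trans (le_of_eq ?_)
  rw [div_pow, mul_pow, Real.sq_sqrt hR.le]
  norm_num

end Crest.Agent.Helper43.S0112
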