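/-
S0112 (row 84), package C1 of `notes/s0112/PROOF.md` (insurance copy, helper43):
the vacuum vector is fixed by the calculus of `D`:
  `S.D.apply f S.vac = f 0 • S.vac`   and   `S.D.wave t S.vac = S.vac`.

Route (no compactly supported cut-offs, no `window`): with the sigmoid `σ(u) = 1/(1+e^u)`,
`σh = σ e^{u/2}` and `1 - σ = σ e^{u}` are bounded, and the Tomita field gives
`σ(D) ξ = (1 - σ)(D) ξ`, i.e. `q(D) ξ = 0` for `q = 1 - 2σ = tanh(u/2)`.  Every bounded continuous
`f` with `f 0 = 0` is a uniform limit of `f q²/(q²+ε) ∈ q · C_b`, hence `f(D) ξ = 0`.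
-/
import Mathlib
import Crest.Prelude.Def_ModularData
import Crest.Agent.Helper68.S0112.Calc

set_option autoImplicit false

open scoped BoundedContinuousFunction InnerProductSpace

namespace Crest.Agent.Helper43.S0112

open Crest.OpAlg Crest.OpAlg.LineCalculus Crest.Agent.Helper68.S0112

variable {H : Type*} [NormedAddCommGroup H] [InnerProductSpace ℂ H] [CompleteSpace H]

/-! ## The modular conjugation is antiunitary -/

omit [CompleteSpace H] in
theorem inner_conjLIE (J : H ≃ₗᵢ⋆[ℂ] H) (x y : H) : ⟪J x, J y⟫_ℂ = ⟪y, x⟫_ℂ := by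
  have h1 : ‖J x + J y‖ = ‖x + y‖ := by rw [← map_add, J.norm_map]
  have h2 : ‖J x - J y‖ = ‖x - y‖ := by rw [← map_sub, J.norm_map]
  have h3 : ‖J x - Complex.I • J y‖ = ‖x + Complex.I • y‖ := by
    rw [← J.norm_map (x + Complex.I • y), map_add, map_smulₛₗ]
    simp [sub_eq_add_neg]
  have h4 : ‖J x + Complex.I • J y‖ = ‖x - Complex.I • y‖ := by
    rw [← J.norm_map (x - Complex.I • y), map_sub, map_smulₛₗ]
    simp [sub_eq_add_neg]
  rw [← inner_conj_symm y x, inner_eq_sum_norm_sq_div_four (𝕜 := ℂ) (J x) (J y),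
    inner_eq_sum_norm_sq_div_four (𝕜 := ℂ) x y]
  simp only [RCLike.I_to_complex, h1, h2, h3, h4, map_div₀, map_add, map_sub, map_mul, map_pow,
    RCLike.conj_ofReal, Complex.conj_I, map_ofNat]
  ring

/-! ## Three bounded functions -/

/-- `σ(u) = 1 / (1 + e^u)`. -/
noncomputable def sigR (u : ℝ) : ℝ := 1 / (1 + Real.exp u)

/-- `σh(u) = e^{u/2} / (1 + e^u)`. -/
noncomputable def sigHR (u : ℝ) : ℝ := Real.exp (u / 2) / (1 + Real.exp u)

/-- `q(u) = (e^u - 1) / (e^u + 1) = tanh (u/2)`. -/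
noncomputable def qR (u : ℝ) : ℝ := (Real.exp u - 1) / (Real.exp u + 1)

theorem continuous_sigR : Continuous sigR := by
  unfold sigR
  exact continuous_const.div (by fun_prop) (fun u => by positivity)

theorem continuous_sigHR : Continuous sigHR := by
  unfold sigHR
  exact (by fun_prop : Continuous fun u : ℝ => Real.exp (u / 2)).div (by fun_prop)
    (fun u => by positivity)

theorem continuous_qR : Continuous qR := by
  unfold qR
  exact (by fun_prop : Continuous fun u : ℝ => Real.exp u - 1).div (by fun_prop)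
    (fun u => by positivity)

theorem abs_sigR_le (u : ℝ) : |sigR u| ≤ 1 := by
  unfold sigR
  have h := Real.exp_pos u
  rw [abs_of_nonneg (by positivity), div_le_one (by positivity)]
  linarith

theorem abs_sigHR_le (u : ℝ) : |sigHR u| ≤ 1 := by
  unfold sigHR
  have h := Real.exp_pos u
  have h2 := Real.exp_pos (u / 2)
  have h3 : Real.exp u = Real.exp (u / 2) * Real.exp (u / 2) := by
    rw [← Real.exp_add]; congr 1; ring
  rw [abs_of_nonneg (by positivity), div_le_one (by positivity)]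
  nlinarith [sq_nonneg (Real.exp (u / 2) - 1)]

theorem abs_qR_le (u : ℝ) : |qR u| ≤ 1 := by
  unfold qR
  have h := Real.exp_pos u
  rw [abs_div, abs_of_pos (by positivity : (0:ℝ) < Real.exp u + 1), div_le_one (by positivity),
    abs_le]
  constructor <;> linarith

/-- The sigmoid as a bounded continuous function. -/
noncomputable def sig : ℝ →ᵇ ℂ :=
  BoundedContinuousFunction.ofNormedAddCommGroup (fun u : ℝ => ((sigR u : ℝ) : ℂ))
    (Complex.continuous_ofReal.comp continuous_sigR) 1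
    (fun u => by rw [Complex.norm_real, Real.norm_eq_abs]; exact abs_sigR_le u)

noncomputable def sigH : ℝ →ᵇ ℂ :=
  BoundedContinuousFunction.ofNormedAddCommGroup (fun u : ℝ => ((sigHR u : ℝ) : ℂ))
    (Complex.continuous_ofReal.comp continuous_sigHR) 1
    (fun u => by rw [Complex.norm_real, Real.norm_eq_abs]; exact abs_sigHR_le u)

noncomputable def qB : ℝ →ᵇ ℂ :=
  BoundedContinuousFunction.ofNormedAddCommGroup (fun u : ℝ => ((qR u : ℝ) : ℂ))
    (Complex.continuous_ofReal.comp continuous_qR) 1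
    (fun u => by rw [Complex.norm_real, Real.norm_eq_abs]; exact abs_qR_le u)

@[simp] theorem sig_apply (u : ℝ) : sig u = ((sigR u : ℝ) : ℂ) := rfl
@[simp] theorem sigH_apply (u : ℝ) : sigH u = ((sigHR u : ℝ) : ℂ) := rfl
@[simp] theorem qB_apply (u : ℝ) : qB u = ((qR u : ℝ) : ℂ) := rfl

theorem star_sig : star sig = sig := by
  ext u; simp

theorem star_sigH : star sigH = sigH := by
  ext u; simp

theorem sigH_eq (u : ℝ) : sigH u = sig u * ((Real.exp (u / 2) : ℝ) : ℂ) := by
  simp only [sig_apply, sigH_apply, ← Complex.ofReal_mul]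
  congr 1
  unfold sigHR sigR
  ring

theorem one_sub_sig_eq (u : ℝ) :
    (1 - sig) u = sigH u * ((Real.exp (u / 2) : ℝ) : ℂ) := by
  have h3 : Real.exp u = Real.exp (u / 2) * Real.exp (u / 2) := by
    rw [← Real.exp_add]; congr 1; ring
  have h := Real.exp_pos u
  simp only [BoundedContinuousFunction.coe_sub, BoundedContinuousFunction.coe_one, Pi.sub_apply,
    Pi.one_apply, sig_apply, sigH_apply, ← Complex.ofReal_mul, ← Complex.ofReal_one,
    ← Complex.ofReal_sub]
  congr 1
  unfold sigHR sigR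
  field_simp
  linarith

theorem qB_eq : qB = 1 - (2 : ℂ) • sig := by
  ext u
  have h := Real.exp_pos u
  simp only [BoundedContinuousFunction.coe_sub, BoundedContinuousFunction.coe_one, Pi.sub_apply,
    Pi.one_apply, BoundedContinuousFunction.coe_smul, qB_apply, sig_apply, smul_eq_mul]
  rw [show (2 : ℂ) = ((2 : ℝ) : ℂ) by norm_num, ← Complex.ofReal_mul, ← Complex.ofReal_one,
    ← Complex.ofReal_sub]
  congr 1
  unfold qR sigR
  field_simp
  ring

/-! ## The Tomita field at the vacuum -/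

theorem halfExp_vac (S : ModularDatum H) : S.D.HalfExp S.vac (S.J S.vac) := by
  have hmem : (S.vac, S.vac) ∈ closure (Set.range fun a : S.M =>
      ((a : H →L[ℂ] H) S.vac, star (a : H →L[ℂ] H) S.vac)) := by
    apply subset_closure
    refine ⟨⟨1, one_mem S.M⟩, ?_⟩
    simp
  rw [S.tomita] at hmem
  exact hmem

theorem pairing (S : ModularDatum H) {p : H × H} (hp : S.D.HalfExp p.1 (S.J p.2)) :
    ⟪p.2, S.vac⟫_ℂ = ⟪S.vac, p.1⟫_ℂ := by
  have hmem : p ∈ closure (Set.range fun a : S.M =>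
      ((a : H →L[ℂ] H) S.vac, star (a : H →L[ℂ] H) S.vac)) := by
    rw [S.tomita]; exact hp
  have hclosed : IsClosed {p : H × H | ⟪p.2, S.vac⟫_ℂ = ⟪S.vac, p.1⟫_ℂ} :=
    isClosed_eq (by fun_prop) (by fun_prop)
  refine closure_minimal ?_ hclosed hmem
  rintro _ ⟨a, rfl⟩
  show ⟪star (a : H →L[ℂ] H) S.vac, S.vac⟫_ℂ = ⟪S.vac, (a : H →L[ℂ] H) S.vac⟫_ℂ
  rw [ContinuousLinearMap.star_eq_adjoint, ContinuousLinearMap.adjoint_inner_left]

/-- For bounded `χ`, `χh` with `χh = χ e^{u/2}`: `(χh)⋆(D) Jξ = χ⋆(D) ξ`. -/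
theorem key (S : ModularDatum H) (χ χh : ℝ →ᵇ ℂ)
    (h : ∀ u, χh u = χ u * ((Real.exp (u / 2) : ℝ) : ℂ)) :
    S.D.apply (star χh) (S.J S.vac) = S.D.apply (star χ) S.vac := by
  refine ext_inner_right ℂ fun z => ?_
  have hp : S.D.HalfExp (S.D.apply χ z) (S.J (S.J (S.D.apply χh z))) := by
    rw [S.J_J]
    intro f g hfg
    rw [← apply_mul_apply, ← apply_mul_apply]
    congr 2
    ext u
    simp only [BoundedContinuousFunction.coe_mul, Pi.mul_apply, h u, hfg u]
    ring
  have hpair := pairing S (p := (S.D.apply χ z, S.J (S.D.apply χh z))) hp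
  simp only at hpair
  -- `⟪J (χh(D) z), ξ⟫ = ⟪Jξ, χh(D) z⟫`
  have hJ : ⟪S.J (S.D.apply χh z), S.vac⟫_ℂ = ⟪S.J S.vac, S.D.apply χh z⟫_ℂ := by
    conv_lhs => rw [← S.J_J S.vac]
    exact inner_conjLIE S.J _ _
  rw [hJ] at hpair
  rw [← inner_apply_right, ← inner_apply_right]
  exact hpair

/-- `q(D) ξ = 0` for `q = tanh (u/2)`. -/
theorem apply_qB_vac (S : ModularDatum H) : S.D.apply qB S.vac = 0 := by
  have h1 := key S sig sigH sigH_eq
  rw [star_sig, star_sigH] at h1
  have h2 : S.D.apply sigH (S.J S.vac) = S.D.apply (1 - sig) S.vac :=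
    halfExp_vac S sigH (1 - sig) one_sub_sig_eq
  have h3 : S.D.apply sig S.vac = S.vac - S.D.apply sig S.vac := by
    have h12 : S.D.apply sig S.vac = S.D.apply (1 - sig) S.vac := h1.symm.trans h2
    rw [map_sub, map_one] at h12
    exact h12
  rw [qB_eq, map_sub, map_one, map_smul]
  show S.vac - (2 : ℂ) • S.D.apply sig S.vac = 0
  rw [two_smul]
  rw [sub_eq_zero]
  calc S.vac = (S.vac - S.D.apply sig S.vac) + S.D.apply sig S.vac := by abel
    _ = S.D.apply sig S.vac + S.D.apply sig S.vac := by rw [← h3]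

/-! ## `q` is bounded away from zero off a neighbourhood of `0` -/

theorem qR_sq_ge {ρ u : ℝ} (hρ : 0 < ρ) (hu : ρ ≤ |u|) : qR ρ ^ 2 ≤ qR u ^ 2 := by
  have hmono : ∀ a b : ℝ, a ≤ b → qR a ≤ qR b := by
    intro a b hab
    unfold qR
    have ha := Real.exp_pos a
    have hb := Real.exp_pos b
    have hexp : Real.exp a ≤ Real.exp b := Real.exp_le_exp.mpr hab
    rw [div_le_div_iff₀ (by positivity) (by positivity)]
    nlinarith
  have hodd : ∀ a : ℝ, qR (-a) = -qR a := by
    intro a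
    unfold qR
    have ha := Real.exp_pos a
    rw [Real.exp_neg]
    field_simp
    ring
  have hpos : 0 ≤ qR ρ := by
    unfold qR
    have h1 : 1 ≤ Real.exp ρ := Real.one_le_exp hρ.le
    have := Real.exp_pos ρ
    apply div_nonneg <;> linarith
  rcases le_abs.mp hu with h | h
  · have := hmono ρ u h
    exact pow_le_pow_left₀ hpos this 2
  · have h' : u ≤ -ρ := by linarith
    have h1 := hmono u (-ρ) h'
    rw [hodd] at h1
    have h2 : qR ρ ≤ -qR u := by linarith
    have h3 := pow_le_pow_left₀ hpos h2 2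
    simpa using h3

theorem qR_pos {ρ : ℝ} (hρ : 0 < ρ) : 0 < qR ρ := by
  unfold qR
  have h1 : 1 < Real.exp ρ := Real.one_lt_exp_iff.mpr hρ
  have := Real.exp_pos ρ
  apply div_pos <;> linarith

/-- The multiplier `q / (q² + ε)`. -/
noncomputable def kB (ε : ℝ) (hε : 0 < ε) : ℝ →ᵇ ℂ :=
  BoundedContinuousFunction.ofNormedAddCommGroup
    (fun u : ℝ => ((qR u / (qR u ^ 2 + ε) : ℝ) : ℂ))
    (Complex.continuous_ofReal.comp
      (continuous_qR.div ((continuous_qR.pow 2).add continuous_const)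
        (fun u => (add_pos_of_nonneg_of_pos (sq_nonneg (qR u)) hε).ne')))
    (1 / ε)
    (fun u => by
      rw [Complex.norm_real, Real.norm_eq_abs, abs_div,
        abs_of_pos (by positivity : (0:ℝ) < qR u ^ 2 + ε)]
      have h1 := abs_qR_le u
      have h2 : ε ≤ qR u ^ 2 + ε := by nlinarith [sq_nonneg (qR u)]
      exact div_le_div₀ zero_le_one h1 hε h2)

/-- **C1.** `f(D) ξ = 0` whenever `f 0 = 0`. -/
theorem apply_vac_of_zero (S : ModularDatum H) (f : ℝ →ᵇ ℂ) (hf : f 0 = 0) :
    S.D.apply f S.vac = 0 := by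
  rw [← norm_le_zero_iff]
  refine le_of_forall_pos_le_add fun η hη => ?_
  rw [zero_add]
  -- continuity of `f` at `0`
  have hcont : ContinuousAt (fun u => f u) 0 := f.continuous.continuousAt
  rw [Metric.continuousAt_iff] at hcont
  obtain ⟨ρ, hρ, hρf⟩ := hcont η hη
  set c : ℝ := qR ρ ^ 2 with hc
  have hcpos : 0 < c := by have := qR_pos hρ; positivity
  set ε : ℝ := η * c / (‖f‖ + 1) with hεdef
  have hfn : 0 ≤ ‖f‖ := norm_nonneg f
  have hε : 0 < ε := by positivity
  -- the approximant `f q² / (q² + ε) = (f * k) * q` kills the vacuum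
  have hkill : S.D.apply ((f * kB ε hε) * qB) S.vac = 0 := by
    rw [apply_mul_apply, apply_qB_vac, map_zero]
  have hdiff : S.D.apply f S.vac = S.D.apply (f - (f * kB ε hε) * qB) S.vac := by
    rw [map_sub]
    show S.D.apply f S.vac = S.D.apply f S.vac - S.D.apply ((f * kB ε hε) * qB) S.vac
    rw [hkill, sub_zero]
  rw [hdiff]
  refine (norm_apply_apply_le S.D _ S.vac).trans ?_
  rw [S.norm_vac, mul_one]
  rw [BoundedContinuousFunction.norm_le hη.le]
  intro u
  have hval : (f - (f * kB ε hε) * qB) u = f u * ((ε / (qR u ^ 2 + ε) : ℝ) : ℂ) := by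
    have hq : (0:ℝ) < qR u ^ 2 + ε := by positivity
    simp only [BoundedContinuousFunction.coe_sub, BoundedContinuousFunction.coe_mul, Pi.sub_apply,
      Pi.mul_apply, qB_apply]
    have hk : kB ε hε u = ((qR u / (qR u ^ 2 + ε) : ℝ) : ℂ) := rfl
    rw [hk]
    have : (1 : ℝ) - qR u / (qR u ^ 2 + ε) * qR u = ε / (qR u ^ 2 + ε) := by
      field_simp
      ring
    rw [← this]
    push_cast
    ring
  rw [hval, norm_mul, Complex.norm_real, Real.norm_eq_abs]
  have hq : (0:ℝ) < qR u ^ 2 + ε := by positivity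
  rw [abs_of_pos (by positivity : (0:ℝ) < ε / (qR u ^ 2 + ε))]
  by_cases hu : |u| < ρ
  · -- near `0`: `‖f u‖ < η`, multiplier `≤ 1`
    have h1 : ‖f u‖ < η := by
      have := hρf (by simpa [Real.dist_eq] using hu)
      simpa [hf, dist_eq_norm] using this
    have h2 : ε / (qR u ^ 2 + ε) ≤ 1 := by
      rw [div_le_one hq]; nlinarith [sq_nonneg (qR u)]
    calc ‖f u‖ * (ε / (qR u ^ 2 + ε)) ≤ ‖f u‖ * 1 :=
          mul_le_mul_of_nonneg_left h2 (norm_nonneg _)
      _ ≤ η := by rw [mul_one]; exact h1.le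
  · -- away from `0`: `q² ≥ c`
    have hu' : ρ ≤ |u| := not_lt.mp hu
    have h1 : c ≤ qR u ^ 2 := qR_sq_ge hρ hu'
    have h2 : ε / (qR u ^ 2 + ε) ≤ ε / c :=
      div_le_div_of_nonneg_left hε.le hcpos (by linarith)
    have h3 : ‖f u‖ ≤ ‖f‖ := f.norm_coe_le_norm u
    calc ‖f u‖ * (ε / (qR u ^ 2 + ε)) ≤ ‖f‖ * (ε / c) :=
          mul_le_mul h3 h2 (by positivity) hfn
      _ = η * (‖f‖ / (‖f‖ + 1)) := by
          rw [hεdef]; field_simp
      _ ≤ η * 1 := by
          apply mul_le_mul_of_nonneg_left _ hη.le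
          rw [div_le_one (by positivity)]; linarith
      _ = η := mul_one η

/-- **C1.** `f(D) ξ = f(0) ξ`. -/
theorem apply_vac (S : ModularDatum H) (f : ℝ →ᵇ ℂ) : S.D.apply f S.vac = f 0 • S.vac := by
  have h := apply_vac_of_zero S (f - f 0 • (1 : ℝ →ᵇ ℂ)) (by simp)
  rw [map_sub, map_smul, map_one] at h
  have h' : S.D.apply f S.vac - f 0 • S.vac = 0 := h
  exact sub_eq_zero.mp h'

/-- **C1.** The vacuum is fixed by `exp(itD)`. -/
theorem wave_vac (S : ModularDatum H) (t : ℝ) : S.D.wave t S.vac = S.vac := by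
  have h := apply_vac S (character t)
  have h0 : character t 0 = 1 := by simp
  rw [h0, one_smul] at h
  exact h

end Crest.Agent.Helper43.S0112
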